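import Vale.Agent.P098.A.Test
import Vale.Agent.P098.K.Av

/-!
# P098 A/Cont  (helper names start with cont_)

A continuous representative.  By `Mol.deriv` and `av_lap_test` the derivative of `av ρ u x` at `r` is `r * (r ^ d)⁻¹ * ∫ lap Ψ' * u`, `Ψ' z = Ψ (r⁻¹ • (z - x))`.  It is `≥ 0` (`a_sub`) and at most a constant:
`a_sup` with `φ = r * Ψ'`, support in `closedBall x r ⊆ ball x (2 r)`, `‖fderiv φ‖ ≤ sup ‖fderiv Ψ‖` and zero off the ball, `Measure.addHaar_ball`.  So `av ρ u x` is `C`-Lipschitz on `(0, ∞)`, its limit `v x` at `0` exists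
(monotone and bounded, or Cauchy along `1 / (n + 1)`), `v` is a uniform limit of continuous functions (`av_contDiff`), `Mol.ae_tendsto`.
-/

set_option maxSynthPendingDepth 3

open MeasureTheory Filter Topology Set Metric
open scoped ContDiff RealInnerProductSpace NNReal

noncomputable section

namespace Vale.Agent.P098

variable {d : ℕ}

variable {u ρ Ψ : E d → ℝ} {g : E d → E d} {c : ℝ}

theorem cont_fderiv (Ψ : E d → ℝ) (x : E d) {r : ℝ} (hr : 0 < r) (z : E d) :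
    fderiv ℝ (fun z => r * Ψ (r⁻¹ • (z - x))) z = fderiv ℝ Ψ (r⁻¹ • (z - x)) := by
  have e0 : ∀ z : E d, -(r⁻¹ • x) + r⁻¹ • z = r⁻¹ • (z - x) := by
    intro z
    rw [smul_sub]
    abel
  have e1 : sc Ψ (-(r⁻¹ • x)) r⁻¹ = fun z => r * Ψ (r⁻¹ • (z - x)) := by
    funext z
    simp only [sc, e0, div_inv_eq_mul]
    ring
  rw [← e1, fderiv_sc Ψ _ (inv_ne_zero hr.ne'), e0]

theorem cont_scale (φ : E d → ℝ) (x : E d) {r : ℝ} (hr : 0 < r) :
    ∫ z, φ (r⁻¹ • (z - x)) = r ^ d * ∫ z, φ z := by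
  have h := av_eq φ (fun _ => 1) x hr
  simp only [av, mul_one] at h
  rw [h, ← mul_assoc, mul_inv_cancel₀ (pow_pos hr d).ne', one_mul]

theorem cont_supp (hm : Mol ρ Ψ c) (x : E d) {r : ℝ} (hr : 0 < r) :
    tsupport (fun z => r * Ψ (r⁻¹ • (z - x))) ⊆ closedBall x r := by
  refine closure_minimal (fun z hz => ?_) isClosed_closedBall
  by_contra h1
  rw [mem_closedBall, dist_eq_norm, not_le] at h1
  refine hz ?_
  show r * Ψ (r⁻¹ • (z - x)) = 0
  rw [(hm.z _ ?_).2, mul_zero]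
  rw [norm_smul, Real.norm_of_nonneg (inv_pos.2 hr).le, le_inv_mul_iff₀ hr, mul_one]
  exact h1.le

theorem a_deriv (h : IsGlobalMin u g) (hm : Mol ρ Ψ c) : ∃ C : ℝ, 0 ≤ C ∧ ∀ (x : E d) (r : ℝ), 0 < r →
    |av (lap Ψ) u x r / r| ≤ C := by
  have hA : 0 ≤ ∫ z, ‖fderiv ℝ Ψ z‖ ^ 2 := integral_nonneg fun z => sq_nonneg _
  refine ⟨((∫ z, ‖fderiv ℝ Ψ z‖ ^ 2) + 2 ^ d * (volume (ball (0 : E d) 1)).toReal) / 2,
    by positivity, fun x r hr => ?_⟩
  have s1 : ContDiff ℝ ∞ fun z => Ψ (r⁻¹ • (z - x)) :=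
    hm.sΨ.comp ((contDiff_id.sub contDiff_const).const_smul r⁻¹)
  have s2 : ContDiff ℝ ∞ fun z => r * Ψ (r⁻¹ • (z - x)) := contDiff_const.mul s1
  have hs := cont_supp hm x hr
  have hc : HasCompactSupport fun z => r * Ψ (r⁻¹ • (z - x)) :=
    (isCompact_closedBall x r).of_isClosed_subset (isClosed_tsupport _) hs
  have h0 : ∀ z, 0 ≤ r * Ψ (r⁻¹ • (z - x)) := fun z => mul_nonneg hr.le (hm.Ψ0 _)
  have h1 := a_sub h s2 hc h0
  have h2 := a_sup h s2 hc h0 (hs.trans (closedBall_subset_ball (show r < 2 * r by linarith)))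
  have e : ∫ z, lap (fun z => r * Ψ (r⁻¹ • (z - x))) z * u z =
      r * ∫ z, lap (fun z => Ψ (r⁻¹ • (z - x))) z * u z := by
    rw [← integral_const_mul]
    refine integral_congr_ae (Eventually.of_forall fun z => ?_)
    show lap (fun z => r * Ψ (r⁻¹ • (z - x))) z * u z = _
    rw [lap_const_mul r (s1.contDiffAt.of_le calc_le2), mul_assoc]
  simp only [cont_fderiv Ψ x hr] at h2
  rw [cont_scale (fun z => ‖fderiv ℝ Ψ z‖ ^ 2) x hr,
    Measure.addHaar_ball_of_pos volume x (show 0 < 2 * r by linarith), ENNReal.toReal_mul,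
    ENNReal.toReal_ofReal (by positivity), finrank_euclideanSpace_fin, mul_pow] at h2
  rw [e] at h1 h2
  rw [av_lap_test Ψ u x hr]
  generalize (∫ z, lap (fun z => Ψ (r⁻¹ • (z - x))) z * u z) = I at h1 h2
  have hp : 0 < r ^ d := pow_pos hr d
  have e2 : r ^ 2 * (r ^ d)⁻¹ * I / r = r * I / r ^ d := by field_simp
  rw [e2, abs_of_nonneg (div_nonneg h1 hp.le), div_le_iff₀ hp]
  linarith

theorem a_cont (h : IsGlobalMin u g) (hm : Mol ρ Ψ c) : ∃ (v : E d → ℝ) (C : ℝ), 0 ≤ C ∧ Continuous v ∧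
    v =ᵐ[volume] u ∧ ∀ (x : E d) (r : ℝ), 0 < r → |av ρ u x r - v x| ≤ C * r := by
  obtain ⟨C, hC, hd⟩ := a_deriv h hm
  have hu := h.mem.locInt
  have h1 : ∀ x : E d, ∃ a : ℝ, ∀ r : ℝ, 0 < r → |av ρ u x r - a| ≤ C * r := by
    intro x
    have hl : LipschitzOnWith ⟨C, hC⟩ (av ρ u x) (Ioi 0) :=
      (convex_Ioi (0 : ℝ)).lipschitzOnWith_of_nnnorm_hasDerivWithin_le
        (fun r hr => (hm.deriv hu x hr).hasDerivWithinAt) fun r hr => hd x r hr
    obtain ⟨G, hG, hG'⟩ := hl.extend_real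
    refine ⟨G 0, fun r hr => ?_⟩
    have := hG.dist_le_mul r 0
    rwa [Real.dist_eq, Real.dist_eq, sub_zero, abs_of_pos hr, ← hG' hr] at this
  choose v hv using h1
  have ht : Tendsto (fun r : ℝ => C * r) (𝓝[>] 0) (𝓝 0) := by
    have : Tendsto (fun r : ℝ => C * r) (𝓝 0) (𝓝 (C * 0)) := (continuous_const_mul C).tendsto 0
    rw [mul_zero] at this
    exact this.mono_left nhdsWithin_le_nhds
  refine ⟨v, C, hC, ?_, ?_, hv⟩
  · have h2 : TendstoUniformly (fun (r : ℝ) x => av ρ u x r) v (𝓝[>] 0) := by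
      refine Metric.tendstoUniformly_iff.2 fun ε hε => ?_
      filter_upwards [ht.eventually_lt_const hε, self_mem_nhdsWithin] with r h3 hr x
      rw [dist_comm, Real.dist_eq]
      exact (hv x r hr).trans_lt h3
    refine h2.continuous (Eventually.frequently ?_)
    filter_upwards [self_mem_nhdsWithin] with r hr
    exact (av_contDiff hm.sρ hm.av_supp hu hr).continuous
  · filter_upwards [hm.ae_tendsto hu] with x hx
    refine tendsto_nhds_unique ?_ hx
    rw [tendsto_iff_norm_sub_tendsto_zero]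
    refine squeeze_zero' (Eventually.of_forall fun _ => norm_nonneg _) ?_ ht
    filter_upwards [self_mem_nhdsWithin] with r hr
    exact hv x r hr

end Vale.Agent.P098
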