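import Vale.Agent.P098.A.Cont
import Vale.Agent.P098.K.Weyl

/-!
# P098 A/Lip  (helper names start with lip_)

The Lipschitz bound.  `a_cont` (its `v` equals `u`, `Continuous.ae_eq_iff_eq`) gives `av ρ u z r ≤ C r` at a zero `z`.  `a_near`: let `z` be a zero nearest to `x` (`IsClosed.exists_infDist_eq_dist`), `δ = ‖x - z‖ > 0`, `ball x δ ⊆ {u > 0}`;
for `‖y - x‖ ≤ δ / 2`, `u y = av ρ u y (δ / 4)` (`weyl_av`, `a_harm`) `≤ (δ / 4)⁻¹ ^ d * sup ρ * ∫ over ball z (2 δ)` and `av ρ u z (4 δ) ≥ c (4 δ)⁻¹ ^ d ∫ over ball z (2 δ)` (`av_eq`, `Mol.low`).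
`a_lip`: `weyl`, `harm_est` on `ball x (δ / 2)` bound the gradient on `{u > 0}`; on a segment inside `{u > 0}` use the mean value inequality, otherwise the segment contains a zero `z'` and `u x ≤ C δ ≤ C ‖x - z'‖`.
-/

set_option maxSynthPendingDepth 3

open MeasureTheory Filter Topology Set Metric
open scoped ContDiff RealInnerProductSpace NNReal

noncomputable section

namespace Vale.Agent.P098

variable {d : ℕ}

variable {u : E d → ℝ} {g : E d → E d}

theorem lip_cmp {ρ Ψ : E d → ℝ} {c M δ : ℝ} (hm : Mol ρ Ψ c) (hu : Continuous u)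
    (hn : ∀ x, 0 ≤ u x) (hM : ∀ w, ρ w ≤ M) {y z : E d} (hδ : 0 < δ) (h : ‖y - z‖ ≤ 3 * δ / 2) :
    av ρ u y (δ / 4) ≤ 16 ^ d * (M / c) * av ρ u z (4 * δ) := by
  have hc := hm.c0
  have hM0 : 0 ≤ M := (hm.ρ0 0).trans (hM 0)
  have h1 : 0 < δ / 4 := by positivity
  have h2 : 0 < 4 * δ := by positivity
  have k : ∫ w, ρ ((δ / 4)⁻¹ • (w - y)) * u w ≤
      M / c * ∫ w, ρ ((4 * δ)⁻¹ • (w - z)) * u w := by
    rw [← integral_const_mul]
    refine integral_mono (moll_int hm.sρ.continuous hm.av_supp hu.locallyIntegrable y h1)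
      ((moll_int hm.sρ.continuous hm.av_supp hu.locallyIntegrable z h2).const_mul _) fun w => ?_
    beta_reduce
    rw [← mul_assoc]
    refine mul_le_mul_of_nonneg_right ?_ (hn w)
    by_cases hw : 1 ≤ ‖(δ / 4)⁻¹ • (w - y)‖
    · rw [(hm.z _ hw).1]
      exact mul_nonneg (by positivity) (hm.ρ0 _)
    · rw [norm_smul, Real.norm_of_nonneg (inv_pos.2 h1).le, not_le, inv_mul_lt_iff₀ h1] at hw
      have k1 := hm.low ((4 * δ)⁻¹ • (w - z)) (by
        rw [norm_smul, Real.norm_of_nonneg (inv_pos.2 h2).le, inv_mul_le_iff₀ h2]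
        linarith [norm_sub_le_norm_sub_add_norm_sub w y z])
      refine (hM _).trans (le_trans (le_of_eq ?_) (mul_le_mul_of_nonneg_left k1 (by positivity)))
      rw [div_mul_cancel₀ _ hc.ne']
  have e : (4 * δ) ^ d = 16 ^ d * (δ / 4) ^ d := by
    rw [← mul_pow]
    congr 1
    ring
  rw [av_eq _ _ _ h1, av_eq _ _ _ h2, e]
  refine (mul_le_mul_of_nonneg_left k (by positivity)).trans_eq ?_
  field_simp

theorem a_near (h : IsGlobalMin u g) (hu : Continuous u) (hn : ∀ x, 0 ≤ u x) : ∃ C : ℝ, 0 ≤ C ∧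
    ∀ x z y : E d, u z = 0 → (∀ w, ‖w - x‖ < ‖x - z‖ → 0 < u w) → ‖y - x‖ ≤ ‖x - z‖ / 2 →
      u y ≤ C * ‖x - z‖ := by
  obtain ⟨ρ, Ψ, c, hm⟩ := exists_mol (d := d)
  obtain ⟨v, C, hC, hv, he, hb⟩ := a_cont h hm
  obtain rfl : v = u := (hv.ae_eq_iff_eq volume hu).1 he
  obtain ⟨M, hM⟩ := hm.sρ.continuous.bounded_above_of_compact_support hm.av_supp
  have hM0 : 0 ≤ M := (norm_nonneg _).trans (hM 0)
  have hc := hm.c0
  refine ⟨16 ^ d * (M / c) * (C * 4), by positivity, fun x z y hz hp hy => ?_⟩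
  rcases (norm_nonneg (x - z)).eq_or_lt with h0 | h0
  · rw [← h0, zero_div, norm_le_zero_iff, sub_eq_zero] at hy
    rw [← h0, mul_zero, hy, sub_eq_zero.1 (norm_eq_zero.1 h0.symm), hz]
  have k1 : av ρ v y (‖x - z‖ / 4) = v y :=
    weyl_av hm hu (O := {x | 0 < v x}) (fun φ h1 h2 h3 => a_harm h hu h1 h2 h3) (by positivity)
      fun w hw => hp w (by
        rw [mem_closedBall, dist_eq_norm] at hw
        linarith [norm_sub_le_norm_sub_add_norm_sub w y x])
  have k2 := (le_abs_self _).trans (hb z (4 * ‖x - z‖) (by positivity))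
  rw [hz, sub_zero] at k2
  have k3 := lip_cmp hm hu hn (fun w => (le_abs_self _).trans (hM w)) (y := y) (z := z) h0
    (by linarith [norm_sub_le_norm_sub_add_norm_sub y x z])
  rw [k1] at k3
  refine k3.trans ((mul_le_mul_of_nonneg_left k2 (by positivity)).trans_eq (by ring))

theorem a_lip (h : IsGlobalMin u g) (hu : Continuous u) (hn : ∀ x, 0 ≤ u x) (h0 : u 0 = 0) :
    Lip u := by
  obtain ⟨C, hC, h1⟩ := a_near h hu hn
  obtain ⟨K, hK, h2⟩ := harm_est d
  have hh : Harm u {x | 0 < u x} := weyl hu (isOpen_lt continuous_const hu)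
    fun φ k1 k2 k3 => a_harm h hu k1 k2 k3
  have hz : ∀ x, ∃ z, u z = 0 ∧ ∀ w, u w = 0 → ‖x - z‖ ≤ ‖x - w‖ := fun x => by
    obtain ⟨z, k1, k2⟩ := (isClosed_eq hu continuous_const).exists_infDist_eq_dist ⟨0, h0⟩ x
    refine ⟨z, k1, fun w hw => ?_⟩
    rw [← dist_eq_norm, ← dist_eq_norm, ← k2]
    exact infDist_le_dist_of_mem hw
  have hp : ∀ x z : E d, (∀ w, u w = 0 → ‖x - z‖ ≤ ‖x - w‖) → ∀ w, ‖w - x‖ < ‖x - z‖ → 0 < u w :=
    fun x z k w hw => (hn w).lt_of_ne fun e => (k w e.symm).not_gt (by rwa [norm_sub_rev x w])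
  have b1 : ∀ x w, u w = 0 → u x ≤ C * ‖x - w‖ := fun x w hw => by
    obtain ⟨z, k1, k2⟩ := hz x
    exact (h1 x z x k1 (hp x z k2) (by rw [sub_self, norm_zero]; positivity)).trans
      (mul_le_mul_of_nonneg_left (k2 w hw) hC)
  have b2 : ∀ x, 0 < u x → ‖fderiv ℝ u x‖ ≤ 2 * K * C := fun x hx => by
    obtain ⟨z, k1, k2⟩ := hz x
    have hδ : 0 < ‖x - z‖ := norm_pos_iff.2 (sub_ne_zero.2 fun e => hx.ne' (e ▸ k1))
    refine (h2 u x (‖x - z‖ / 2) (C * ‖x - z‖) (half_pos hδ) (fun y hy => hh y (hp x z k2 y ?_))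
      fun y hy => ?_).trans_eq ?_
    · rw [mem_ball, dist_eq_norm] at hy
      linarith
    · rw [mem_ball, dist_eq_norm] at hy
      rw [abs_of_nonneg (hn y)]
      exact h1 x z y k1 (hp x z k2) hy.le
    · field_simp
  have hL : 0 ≤ 2 * K * C := by positivity
  refine ⟨⟨2 * K * C, hL⟩, LipschitzWith.of_dist_le_mul fun x y => ?_⟩
  show dist (u x) (u y) ≤ 2 * K * C * dist x y
  by_cases hs : ∀ w ∈ segment ℝ x y, 0 < u w
  · rw [dist_eq_norm, dist_eq_norm]
    exact (convex_segment x y).norm_image_sub_le_of_norm_fderiv_le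
      (fun w hw => (hh w (hs w hw)).1.differentiableAt (by simp)) (fun w hw => b2 w (hs w hw))
      (right_mem_segment ℝ x y) (left_mem_segment ℝ x y)
  · push Not at hs
    obtain ⟨w, k1, k2⟩ := hs
    have k3 := k2.antisymm (hn w)
    have k4 := dist_add_dist_of_mem_segment k1
    have k5 := b1 x w k3
    have k6 := b1 y w k3
    rw [← dist_eq_norm] at k5 k6
    rw [dist_comm w y] at k4
    have k7 : C * dist x y ≤ 2 * K * C * dist x y :=
      mul_le_mul_of_nonneg_right (by nlinarith) dist_nonneg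
    have k8 : 0 ≤ C * dist x w := mul_nonneg hC dist_nonneg
    have k9 : 0 ≤ C * dist y w := mul_nonneg hC dist_nonneg
    rw [← k4, mul_add] at k7
    rw [Real.dist_eq, abs_le, ← k4]
    constructor <;> linarith [hn x, hn y]


end Vale.Agent.P098
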