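import Vale.Agent.P098.A.Lip
import Vale.Agent.P098.K.Ibp

/-!
# P098 A/Main  (helper names start with main_)

From the statement to `Mn`.  `Lip.h1`: `ibp_mul`.  `H1loc.unique`: `ae_eq_of_integral_contDiff_smul_eq` for each coordinate.  `a_mn`: apply `le` on `ball 0 (max R 0 + 1)` with `K = closedBall 0 (max R 0)`; `energy B v (gradient v) = ∫ x in B, en v x` (`norm_gradient`),
`en v - en u` vanishes for `‖x‖ > R` (`en_congr`).  `a_main`: `a_cont`, `IsGlobalMin.congr`; `x ↦ r • x` is quasi measure preserving (`Measure.map_addHaar_smul` or `Measure.quasiMeasurePreserving_smul`), `Continuous.ae_eq_iff_eq`; `v 0 = 2 * v 0`; `v ≥ 0` everywhere since `max v 0 =ᵐ v`.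
-/

set_option maxSynthPendingDepth 3

open MeasureTheory Filter Topology Set Metric
open scoped ContDiff RealInnerProductSpace NNReal

noncomputable section

namespace Vale.Agent.P098

variable {d : ℕ}

variable {u v : E d → ℝ} {g g' : E d → E d}

theorem main_fin (R : ℝ) : IsFiniteMeasure (volume.restrict (ball (0 : E d) R)) :=
  isFiniteMeasure_restrict.2 measure_ball_lt_top.ne

theorem Lip.h1 (hv : Lip v) : H1loc v (gradient v) := by
  refine ⟨fun R => ?_, fun R => ?_, fun φ hφ hc i => ?_⟩
  · have := main_fin (d := d) R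
    obtain ⟨C, hC⟩ := ibp_bd hv.continuous R
    refine MemLp.of_bound hv.continuous.aestronglyMeasurable C ?_
    filter_upwards [ae_restrict_mem measurableSet_ball] with x hx
    exact hC x (mem_ball_zero_iff.1 hx).le
  · have := main_fin (d := d) R
    obtain ⟨C, -, hC, -⟩ := hv.bdd
    exact MemLp.of_bound (((InnerProductSpace.toDual ℝ (E d)).symm.continuous.measurable.comp
      (measurable_fderiv ℝ v)).aestronglyMeasurable) C
      (.of_forall fun x => (norm_gradient v x).trans_le (hC x))
  · obtain ⟨R, hR⟩ := exists_radius hc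
    have := (ibp_mul hv.loc (hφ.of_le (by simp)).locallyLipschitz hR (bv i)).2.2
    simp only [gradient_apply, mul_comm (φ _), mul_comm _ (v _), this, neg_neg]
    rfl

theorem H1loc.unique (h : H1loc u g) (h' : H1loc u g') : g =ᵐ[volume] g' := by
  have li : ∀ {g : E d → E d}, H1loc u g → ∀ i, LocallyIntegrable fun x => g x i :=
    fun h i x => let ⟨s, hs, hi⟩ := h.locInt_grad x
      ⟨s, hs, (EuclideanSpace.proj i : E d →L[ℝ] ℝ).integrable_comp hi⟩
  filter_upwards [ae_all_iff.2 fun i => ae_eq_of_integral_contDiff_smul_eq (li h i) (li h' i)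
    fun φ hφ hc => neg_injective ((h.weak φ hφ hc i).symm.trans (h'.weak φ hφ hc i))] with x hx
  exact PiLp.ext hx

theorem main_en (hu : Lip u) (h : H1loc u g) (R : ℝ) :
    IntegrableOn (en u) (ball 0 R) ∧ energy (ball 0 R) u g = ∫ x in ball 0 R, en u x := by
  have := main_fin (d := d) R
  obtain ⟨C, hC⟩ := hu.en_bdd
  refine ⟨Integrable.of_bound (measurable_en hu.continuous).aestronglyMeasurable C (.of_forall hC),
    integral_congr_ae (ae_restrict_of_ae ?_)⟩
  filter_upwards [h.unique hu.h1] with x hx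
  rw [hx, norm_gradient, en]

theorem a_mn (h : IsGlobalMin u g) (hu : Lip u) (hn : ∀ x, 0 ≤ u x) : Mn u := by
  refine ⟨hu, hn, fun v hv hv0 ⟨R, hR⟩ => ?_⟩
  have a := h.le 0 (R + 1) v _ hv.h1 (.of_forall hv0) ⟨closedBall 0 R, isCompact_closedBall _ _,
    closedBall_subset_ball (lt_add_one R), .of_forall fun x hx =>
      hR x (not_le.1 (mt mem_closedBall_zero_iff.2 hx)).le⟩
  obtain ⟨i1, e1⟩ := main_en hu h.mem (R + 1)
  obtain ⟨i2, e2⟩ := main_en hv hv.h1 (R + 1)
  rw [← setIntegral_eq_integral_of_forall_compl_eq_zero (s := ball 0 (R + 1)) fun x hx => by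
    rw [en_congr (lip_ev hR ((lt_add_one R).trans_le (not_lt.1 (mt mem_ball_zero_iff.2 hx)))),
      sub_self], integral_sub i2 i1]
  linarith

theorem a_main (h : IsGlobalMin u g) (hh : ∀ r : ℝ, 0 < r → ∀ᵐ x, u (r • x) = r * u x) :
    ∃ v : E d → ℝ, v =ᵐ[volume] u ∧ Mn v ∧ Hom v := by
  obtain ⟨ρ, Ψ, c, hm⟩ := exists_mol (d := d)
  obtain ⟨v, C, -, hc, e, -⟩ := a_cont h hm
  have h' := h.congr e
  have hom : Hom v := fun r hr => congrFun <| (Continuous.ae_eq_iff_eq volume
      (hc.comp (continuous_const_smul r)) (continuous_const.mul hc)).1 <| by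
    filter_upwards [hh r hr, e, (Measure.quasiMeasurePreserving_smul volume hr.ne').ae e]
      with x h1 h2 h3
    exact h3.trans (h1.trans (congrArg (r * ·) h2.symm))
  have nn : ∀ x, 0 ≤ v x := fun x => max_eq_left_iff.1 <| congrFun
    ((Continuous.ae_eq_iff_eq volume (hc.max continuous_const) hc).1
      (h'.nonneg.mono fun x hx => max_eq_left hx)) x
  have z := hom 2 two_pos 0
  rw [smul_zero] at z
  exact ⟨v, e, a_mn h' (a_lip h' hc nn (by linarith)) nn, hom⟩

end Vale.Agent.P098
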