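import Vale.Agent.P098.K.Lip
import Vale.Agent.P363.A.Trunc

/-!
# P098 A/Pos  (helper names start with pos_)

The positive part of an `H¹_loc` function.  For a test function `φ` take `χ` from `exists_cutoff` equal to one on a ball containing the support of `φ`; `(χ w, χ h i + ∂ᵢχ w)` lies in `Vale.Agent.P363.Sob e` with `e = bv`
(weak derivative: test with `φ χ`), `Vale.Agent.P363.posPart` with `c = 0` gives the weak derivative of `max (χ w) 0`, which agrees with `max w 0` on the ball.
-/

set_option maxSynthPendingDepth 3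

open MeasureTheory Filter Topology Set Metric
open scoped ContDiff RealInnerProductSpace NNReal

noncomputable section

namespace Vale.Agent.P098

variable {d : ℕ}

variable {u w φ : E d → ℝ} {g h : E d → E d}

theorem pos_fin (R : ℝ) : IsFiniteMeasure (volume.restrict (ball (0 : E d) R)) :=
  isFiniteMeasure_restrict.2 measure_ball_lt_top.ne

theorem pos_loc {F : Type} [NormedAddCommGroup F] {f : E d → F}
    (hf : ∀ R : ℝ, MemLp f 2 (volume.restrict (ball 0 R))) : LocallyIntegrable f := by
  intro x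
  refine ⟨ball 0 (‖x‖ + 1), isOpen_ball.mem_nhds (by simp), ?_⟩
  haveI := pos_fin (d := d) (‖x‖ + 1)
  exact (hf _).integrable one_le_two

theorem pos_coord (hg : ∀ R : ℝ, MemLp g 2 (volume.restrict (ball 0 R))) (i : Fin d) (R : ℝ) :
    MemLp (fun x => g x i) 2 (volume.restrict (ball 0 R)) :=
  (EuclideanSpace.proj (𝕜 := ℝ) i).comp_memLp' (hg R)

theorem pos_cont {F : Type} [NormedAddCommGroup F] [SecondCountableTopology F] {f : E d → F}
    (hf : Continuous f) (R : ℝ) : MemLp f 2 (volume.restrict (ball 0 R)) := by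
  haveI := pos_fin (d := d) R
  obtain ⟨C, hC⟩ := (isCompact_closedBall (0 : E d) R).exists_bound_of_continuousOn
    hf.continuousOn
  refine MemLp.of_bound hf.aestronglyMeasurable C ?_
  filter_upwards [ae_restrict_mem measurableSet_ball] with x hx
  exact hC x (ball_subset_closedBall hx)

theorem pos_mul {θ f : E d → ℝ} (hθ : Continuous θ) (hc : HasCompactSupport θ)
    (hf : ∀ R : ℝ, MemLp f 2 (volume.restrict (ball 0 R))) :
    MemLp (fun x => θ x * f x) 2 volume := by
  obtain ⟨R, hR⟩ := exists_radius hc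
  obtain ⟨C, hC⟩ := hθ.bounded_above_of_compact_support hc
  have e : (fun x => θ x * f x) = (ball (0 : E d) R).indicator fun x => θ x * f x := by
    funext x
    by_cases hx : x ∈ ball (0 : E d) R
    · rw [indicator_of_mem hx]
    · rw [indicator_of_notMem hx, hR x (by simpa using hx), zero_mul]
  rw [e, memLp_indicator_iff_restrict measurableSet_ball]
  refine (hf R).of_le_mul (c := C) (hθ.aestronglyMeasurable.mul (hf R).1)
    (ae_of_all _ fun x => ?_)
  rw [norm_mul]
  exact mul_le_mul_of_nonneg_right (hC x) (norm_nonneg _)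

theorem pos_int {θ f : E d → ℝ} (hθ : Continuous θ) (hc : HasCompactSupport θ)
    (hf : ∀ R : ℝ, MemLp f 2 (volume.restrict (ball 0 R))) :
    Integrable fun x => θ x * f x :=
  (pos_loc hf).integrable_smul_left_of_hasCompactSupport hθ hc

theorem pos_dc (hφ : ContDiff ℝ ∞ φ) (v : E d) : Continuous fun x => fderiv ℝ φ x v :=
  (hφ.continuous_fderiv (by simp)).clm_apply continuous_const

theorem pos_sob (hw : H1loc w h) {χ : E d → ℝ} (h1 : ContDiff ℝ ∞ χ) (h2 : HasCompactSupport χ) :
    ((fun x => χ x * w x), fun i x => χ x * h x i + fderiv ℝ χ x (bv i) * w x) ∈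
      Vale.Agent.P363.Sob (bv : Fin d → E d) := by
  refine Vale.Agent.P363.mem_Sob.2 ⟨pos_mul h1.continuous h2 hw.val_mem, fun i =>
    (pos_mul h1.continuous h2 (pos_coord hw.grad_mem i)).add
      (pos_mul (pos_dc h1 _) (h2.fderiv_apply ℝ _) hw.val_mem), fun i ψ g1 g2 => ?_⟩
  have key := hw.weak (fun x => ψ x * χ x) (g1.mul h1) g2.mul_right i
  have e : ∀ x, fderiv ℝ (fun x => ψ x * χ x) x (EuclideanSpace.single i 1) * w x =
      fderiv ℝ ψ x (bv i) * χ x * w x + ψ x * fderiv ℝ χ x (bv i) * w x := fun x => by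
    rw [fderiv_fun_mul (g1.differentiable (by simp) x) (h1.differentiable (by simp) x)]
    simp only [_root_.add_apply, _root_.smul_apply, smul_eq_mul, bv]
    ring
  have i1 := pos_int ((pos_dc g1 (bv i)).mul h1.continuous) h2.mul_left hw.val_mem
  have i2 := pos_int (g1.continuous.mul (pos_dc h1 (bv i))) g2.mul_right hw.val_mem
  have i3 := pos_int (g1.continuous.mul h1.continuous) g2.mul_right (pos_coord hw.grad_mem i)
  simp only [e] at key
  simp only [Pi.mul_apply] at i1 i2 i3
  rw [integral_add i1 i2] at key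
  simp only [mul_add, ← mul_assoc]
  rw [integral_add i3 i2]
  linarith


theorem H1loc.locInt (hu : H1loc u g) : LocallyIntegrable u := by
  exact pos_loc hu.val_mem
theorem H1loc.locInt_grad (hu : H1loc u g) : LocallyIntegrable g := by
  exact pos_loc hu.grad_mem
theorem H1loc.congr (hu : H1loc u g) (hw : w =ᵐ[volume] u) : H1loc w g := by
  refine ⟨fun R => (hu.val_mem R).ae_eq (ae_restrict_of_ae hw.symm), hu.grad_mem,
    fun ψ h1 h2 i => ?_⟩
  rw [← hu.weak ψ h1 h2 i]
  exact integral_congr_ae (hw.mono fun x hx => by simp only [hx])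
theorem H1loc.add_smooth (hu : H1loc u g) (hφ : ContDiff ℝ ∞ φ) (t : ℝ) :
    H1loc (fun x => u x + t * φ x) fun x => g x + t • gradient φ x := by
  have hg : Continuous (gradient φ) :=
    (InnerProductSpace.toDual ℝ (E d)).symm.continuous.comp (hφ.continuous_fderiv (by simp))
  refine ⟨fun R => (hu.val_mem R).add (pos_cont (continuous_const.mul hφ.continuous) R),
    fun R => (hu.grad_mem R).add (pos_cont (hg.const_smul t) R), fun ψ h1 h2 i => ?_⟩
  have key := hu.weak ψ h1 h2 i
  have i1 := pos_int (pos_dc h1 (bv i)) (h2.fderiv_apply ℝ _) hu.val_mem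
  have i2 := pos_int (pos_dc h1 (bv i)) (h2.fderiv_apply ℝ _) (pos_cont hφ.continuous)
  have i3 := pos_int h1.continuous h2 (pos_coord hu.grad_mem i)
  have i4 := pos_int h1.continuous h2 (pos_cont (pos_dc hφ (bv i)))
  have i5 := pos_int h1.continuous h2 (pos_cont hφ.continuous)
  have ibp := integral_mul_fderiv_eq_neg_fderiv_mul_of_integrable (v := bv i) i2 i4 i5
    (fun x _ => h1.differentiable (by simp) x) fun x _ => hφ.differentiable (by simp) x
  simp only [PiLp.add_apply, PiLp.smul_apply, smul_eq_mul, gradient_apply, mul_add,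
    mul_left_comm _ t]
  change ∫ x, (fderiv ℝ ψ x (bv i) * u x + t * (fderiv ℝ ψ x (bv i) * φ x)) = _
  rw [integral_add i1 (i2.const_mul t), integral_add i3 (i4.const_mul t), integral_const_mul,
    integral_const_mul, ibp]
  change ∫ x, fderiv ℝ ψ x (bv i) * u x = _ at key
  rw [key]
  ring
theorem H1loc.posPart (hw : H1loc w h) :
    H1loc (fun x => max (w x) 0) fun x => if 0 < w x then h x else 0 := by
  refine ⟨fun R => (hw.val_mem R).pos_part, fun R => ?_, fun ψ h1 h2 i => ?_⟩
  · have hm : NullMeasurableSet {x | 0 < w x} (volume.restrict (ball (0 : E d) R)) :=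
      nullMeasurableSet_lt aemeasurable_const (hw.val_mem R).1.aemeasurable
    refine (hw.grad_mem R).of_le ((hw.grad_mem R).1.indicator₀ hm) (ae_of_all _ fun x => ?_)
    split_ifs
    · exact le_rfl
    · rw [norm_zero]
      exact norm_nonneg _
  obtain ⟨R, hR⟩ := exists_radius h2
  obtain ⟨χ, -, c1, c2, -, c3, -⟩ := exists_cutoff (d := d) (R + 1)
  have key := (Vale.Agent.P363.mem_Sob.1 (Vale.Agent.P363.posPart
    (Vale.Agent.P363.S.of (pos_sob hw c1 c2)) le_rfl)).2.2 i ψ h1 h2
  simp only [Vale.Agent.P363.S.of_f, Vale.Agent.P363.S.of_g, sub_zero] at key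
  have hin : ∀ x : E d, ‖x‖ < R + 1 → χ x = 1 ∧ fderiv ℝ χ x = 0 := fun x hx => by
    refine ⟨c3 x hx.le, ?_⟩
    have : χ =ᶠ[𝓝 x] fun _ => 1 := by
      have h3 : ∀ᶠ y in 𝓝 x, ‖y‖ < R + 1 := continuous_norm.continuousAt.eventually (gt_mem_nhds hx)
      filter_upwards [h3] with y hy using c3 y hy.le
    rw [this.fderiv_eq, fderiv_fun_const, Pi.zero_apply]
  have hout : ∀ x : E d, ¬‖x‖ < R + 1 → ψ x = 0 ∧ fderiv ℝ ψ x = 0 := fun x hx => by
    refine ⟨hR x (by linarith), ?_⟩
    have : ψ =ᶠ[𝓝 x] fun _ => 0 := lip_ev (u := fun _ => 0) hR (by linarith)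
    rw [this.fderiv_eq, fderiv_fun_const, Pi.zero_apply]
  have e1 : ∀ x, fderiv ℝ ψ x (EuclideanSpace.single i 1) * max (w x) 0 =
      fderiv ℝ ψ x (bv i) * max (χ x * w x) 0 := fun x => by
    by_cases hx : ‖x‖ < R + 1
    · rw [(hin x hx).1, one_mul, bv]
    · simp [(hout x hx).2]
  have e2 : ∀ x, ψ x * (if 0 < w x then h x else 0) i =
      ψ x * if 0 < χ x * w x then χ x * h x i + fderiv ℝ χ x (bv i) * w x else 0 := fun x => by
    by_cases hx : ‖x‖ < R + 1
    · rw [(hin x hx).1, (hin x hx).2, one_mul]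
      split_ifs <;> simp
    · simp [(hout x hx).1]
  simp only [e1, e2]
  exact key

end Vale.Agent.P098
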