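import Vale.Agent.P098.A.Pos
import Vale.Agent.P098.K.Calc

/-!
# P098 A/Test  (helper names start with test_)

Testing the minimality with smooth functions.  `H1loc.lap`: `lap φ x = ∑ i, fderiv (fun y => fderiv φ y (bv i)) x (bv i)` (`D2_apply`), `weak` with the test function `fderiv φ · (bv i)`.
`a_sup`: competitor `u + φ`.  `a_sub`: competitor `max (u - t φ) 0` gives `0 ≤ 2 t ∫ lap φ * u + t ^ 2 ∫ ‖∇φ‖ ^ 2`, `t → 0`.  `a_harm`: competitor `u + t φ`, `|t|` small (`u` has a positive lower bound on the compact `tsupport φ`), same positivity set.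
Always `K = tsupport φ`.
-/

set_option maxSynthPendingDepth 3

open MeasureTheory Filter Topology Set Metric
open scoped ContDiff RealInnerProductSpace NNReal

noncomputable section

namespace Vale.Agent.P098

variable {d : ℕ}

variable {u v φ : E d → ℝ} {g : E d → E d}

theorem test_c1 (hφ : ContDiff ℝ ∞ φ) (e : E d) : ContDiff ℝ ∞ fun y => fderiv ℝ φ y e :=
  contDiff_iff_contDiffAt.2 fun _ => contDiffAt_fderiv_apply hφ.contDiffAt e

theorem test_gi (h : H1loc u g) {ψ : E d → ℝ} (hψ : Continuous ψ) (hc : HasCompactSupport ψ)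
    (i : Fin d) : Integrable fun x => ψ x * g x i := by
  have h1 := (EuclideanSpace.proj i : E d →L[ℝ] ℝ).integrable_comp
    (h.locInt_grad.integrable_smul_left_of_hasCompactSupport hψ hc)
  simpa using h1

theorem test_inner (x : E d) :
    ⟪gradient φ x, g x⟫ = ∑ i, fderiv ℝ φ x (bv i) * g x i := by
  simp only [inner_eq_sum, gradient_apply]

theorem test_int (h : H1loc u g) (hφ : ContDiff ℝ ∞ φ) (hc : HasCompactSupport φ) :
    Integrable fun x => ⟪gradient φ x, g x⟫ := by
  simp only [test_inner]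
  exact integrable_finsetSum _ fun i _ =>
    test_gi h (test_c1 hφ _).continuous (hc.fderiv_apply ℝ _) i

theorem test_sq (hφ : ContDiff ℝ ∞ φ) (hc : HasCompactSupport φ) :
    Integrable fun x => ‖fderiv ℝ φ x‖ ^ 2 := by
  refine Continuous.integrable_of_hasCompactSupport
    ((hφ.continuous_fderiv (by simp)).norm.pow 2) ?_
  refine HasCompactSupport.intro hc.isCompact fun x hx => ?_
  rw [fderiv_of_notMem_tsupport ℝ hx]
  simp

theorem test_en (h : H1loc u g) (c : E d) (r : ℝ) :
    IntegrableOn (fun x => ‖g x‖ ^ 2 + if 0 < u x then 1 else 0) (ball c r) := by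
  have hs : ball c r ⊆ ball 0 (‖c‖ + r) := ball_subset_ball' (by rw [dist_zero_right]; linarith)
  refine IntegrableOn.mono_set ?_ hs
  have h1 := h.grad_mem (‖c‖ + r)
  have h2 := (h.val_mem (‖c‖ + r)).aestronglyMeasurable.aemeasurable
  have h3 : Measurable fun t : ℝ => if 0 < t then (1 : ℝ) else 0 :=
    Measurable.ite measurableSet_Ioi measurable_const measurable_const
  refine Integrable.add ((memLp_two_iff_integrable_sq_norm h1.aestronglyMeasurable).1 h1) ?_
  have : IsFiniteMeasure (volume.restrict (ball (0 : E d) (‖c‖ + r))) :=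
    isFiniteMeasure_restrict.2 measure_ball_lt_top.ne
  refine Integrable.of_bound (h3.comp_aemeasurable h2).aestronglyMeasurable 1
    (ae_of_all _ fun x => ?_)
  split_ifs <;> simp

theorem IsGlobalMin.congr (h : IsGlobalMin u g) (hv : v =ᵐ[volume] u) : IsGlobalMin v g := by
  refine ⟨h.mem.congr hv, ?_, fun c r w k hw h0 hK => ?_⟩
  · filter_upwards [h.nonneg, hv] with x h1 h2
    rwa [h2]
  · obtain ⟨K, h1, h2, h3⟩ := hK
    refine le_trans (le_of_eq ?_) (h.le c r w k hw h0 ⟨K, h1, h2, ?_⟩)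
    · refine integral_congr_ae ?_
      filter_upwards [ae_restrict_of_ae hv] with x hx
      rw [hx]
    · filter_upwards [h3, hv] with x h4 h5 hx
      rw [h4 hx, h5]

theorem H1loc.lap (h : H1loc u g) (hφ : ContDiff ℝ ∞ φ) (hc : HasCompactSupport φ) :
    ∫ x, Vale.Agent.P098.lap φ x * u x = -∫ x, ⟪gradient φ x, g x⟫ := by
  have h2 : ∀ x, ContDiffAt ℝ 2 φ x := fun x => hφ.contDiffAt.of_le calc_le2
  have h3 : ∀ x, Vale.Agent.P098.lap φ x * u x =
      ∑ i, fderiv ℝ (fun y => fderiv ℝ φ y (bv i)) x (bv i) * u x := fun x => by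
    simp only [Vale.Agent.P098.lap, tr, D2_apply (h2 x), Finset.sum_mul]
  simp only [h3, test_inner]
  rw [integral_finsetSum _ fun i _ => ?_, integral_finsetSum _ fun i _ =>
    test_gi h (test_c1 hφ _).continuous (hc.fderiv_apply ℝ _) i, ← Finset.sum_neg_distrib]
  · exact Finset.sum_congr rfl fun i _ => h.weak _ (test_c1 hφ _) (hc.fderiv_apply ℝ _) i
  · exact h.locInt.integrable_smul_left_of_hasCompactSupport
      (test_c1 (test_c1 hφ _) _).continuous ((hc.fderiv_apply ℝ _).fderiv_apply ℝ _)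

theorem test_main (h : IsGlobalMin u g) (hφ : ContDiff ℝ ∞ φ) (hc : HasCompactSupport φ)
    {c : E d} {r : ℝ} (hs : tsupport φ ⊆ ball c r) (t m : ℝ) {k : E d → E d} (hv : H1loc v k)
    (h0 : ∀ᵐ x, 0 ≤ v x) (h1 : ∀ᵐ x, x ∉ tsupport φ → v x = u x)
    (h2 : ∀ x, (‖k x‖ ^ 2 + if 0 < v x then 1 else 0) ≤
      (‖g x + t • gradient φ x‖ ^ 2 + if 0 < u x then 1 else 0) + m) :
    2 * t * ∫ x, lap φ x * u x ≤
      t ^ 2 * (∫ x, ‖fderiv ℝ φ x‖ ^ 2) + m * (volume (ball c r)).toReal := by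
  have h3 := h.le c r v k hv h0 ⟨tsupport φ, hc.isCompact, hs, h1⟩
  have hA := test_en h.mem c r
  have hB : Integrable fun x => 2 * t * ⟪gradient φ x, g x⟫ + t ^ 2 * ‖fderiv ℝ φ x‖ ^ 2 :=
    ((test_int h.mem hφ hc).const_mul _).add ((test_sq hφ hc).const_mul _)
  have hC : IntegrableOn (fun _ : E d => m) (ball c r) :=
    integrableOn_const measure_ball_lt_top.ne
  have h4 : energy (ball c r) v k ≤ ∫ x in ball c r,
      (((‖g x‖ ^ 2 + if 0 < u x then 1 else 0) +
        (2 * t * ⟪gradient φ x, g x⟫ + t ^ 2 * ‖fderiv ℝ φ x‖ ^ 2)) + m) := by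
    refine integral_mono_of_nonneg (ae_of_all _ fun x => ?_) ((hA.add hB.integrableOn).add hC)
      (ae_of_all _ fun x => ?_)
    · simp only [Pi.zero_apply]
      split_ifs <;> positivity
    · refine (h2 x).trans (le_of_eq ?_)
      simp only
      rw [norm_add_sq_real, real_inner_smul_right, norm_smul, mul_pow, Real.norm_eq_abs, sq_abs,
        norm_gradient, real_inner_comm]
      ring
  have hD : IntegrableOn (fun x => (‖g x‖ ^ 2 + if 0 < u x then 1 else 0) +
      (2 * t * ⟪gradient φ x, g x⟫ + t ^ 2 * ‖fderiv ℝ φ x‖ ^ 2)) (ball c r) :=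
    hA.add hB.integrableOn
  have hE : ∫ x in ball c r, (2 * t * ⟪gradient φ x, g x⟫ + t ^ 2 * ‖fderiv ℝ φ x‖ ^ 2) =
      ∫ x, (2 * t * ⟪gradient φ x, g x⟫ + t ^ 2 * ‖fderiv ℝ φ x‖ ^ 2) :=
    setIntegral_eq_integral_of_forall_compl_eq_zero fun x hx => by
      have h5 : fderiv ℝ φ x = 0 := fderiv_of_notMem_tsupport ℝ fun hx' => hx (hs hx')
      rw [inner_gradient, h5]
      simp
  rw [integral_add hD hC, integral_add hA hB.integrableOn,
    hE,
    integral_add ((test_int h.mem hφ hc).const_mul _) ((test_sq hφ hc).const_mul _),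
    integral_const_mul, integral_const_mul, setIntegral_const, smul_eq_mul, Measure.real] at h4
  rw [h.mem.lap hφ hc]
  unfold energy at h3 h4
  linarith

theorem test_ball (hc : HasCompactSupport φ) : ∃ r : ℝ, tsupport φ ⊆ ball 0 r :=
  hc.isCompact.isBounded.subset_ball 0

theorem test_lim {a b δ : ℝ} (hδ : 0 < δ) (h : ∀ t, 0 < t → t < δ → 2 * t * a ≤ t ^ 2 * b) :
    a ≤ 0 := by
  have h1 : Tendsto (fun t : ℝ => t * b / 2) (𝓝[>] 0) (𝓝 (0 * b / 2)) :=
    ((continuous_id.mul continuous_const).div_const 2).continuousAt.tendsto.mono_left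
      nhdsWithin_le_nhds
  rw [zero_mul, zero_div] at h1
  refine ge_of_tendsto h1 ?_
  filter_upwards [Ioo_mem_nhdsGT hδ] with t ht
  have h2 := h t ht.1 ht.2
  have h3 : t * (2 * a) ≤ t * (t * b) := by nlinarith
  have h4 := le_of_mul_le_mul_left h3 ht.1
  linarith

theorem a_sup (h : IsGlobalMin u g) (hφ : ContDiff ℝ ∞ φ) (hc : HasCompactSupport φ)
    (h0 : ∀ x, 0 ≤ φ x) {c : E d} {r : ℝ} (hs : tsupport φ ⊆ ball c r) :
    2 * ∫ x, lap φ x * u x ≤ (∫ x, ‖fderiv ℝ φ x‖ ^ 2) + (volume (ball c r)).toReal := by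
  have := test_main h hφ hc hs 1 1 (h.mem.add_smooth hφ 1) ?_ ?_ ?_
  · simpa using this
  · filter_upwards [h.nonneg] with x hx
    have := h0 x
    linarith
  · refine ae_of_all _ fun x hx => ?_
    rw [image_eq_zero_of_notMem_tsupport hx]
    simp
  · intro x
    split_ifs <;> linarith

theorem a_sub (h : IsGlobalMin u g) (hφ : ContDiff ℝ ∞ φ) (hc : HasCompactSupport φ)
    (h0 : ∀ x, 0 ≤ φ x) : 0 ≤ ∫ x, lap φ x * u x := by
  obtain ⟨r, hr⟩ := test_ball hc
  have : -∫ x, lap φ x * u x ≤ 0 := by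
    refine test_lim (b := ∫ x, ‖fderiv ℝ φ x‖ ^ 2) one_pos fun t ht _ => ?_
    have := test_main h hφ hc hr (-t) 0 (h.mem.add_smooth hφ (-t)).posPart ?_ ?_ ?_
    · rw [neg_sq] at this
      linarith
    · exact ae_of_all _ fun x => le_max_right _ _
    · filter_upwards [h.nonneg] with x hx hx'
      rw [image_eq_zero_of_notMem_tsupport hx', mul_zero, add_zero, max_eq_left hx]
    · intro x
      have h1 := mul_nonneg ht.le (h0 x)
      by_cases h2 : 0 < u x + -t * φ x
      · have h3 : 0 < u x := by linarith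
        rw [if_pos h2, if_pos h3, if_pos (lt_max_of_lt_left h2), add_zero]
      · rw [if_neg h2, max_eq_right (not_lt.1 h2), if_neg (lt_irrefl _), norm_zero]
        have h3 : (0 : ℝ) ≤ if 0 < u x then 1 else 0 := by split_ifs <;> norm_num
        have h4 := sq_nonneg ‖g x + -t • gradient φ x‖
        linarith
  linarith

theorem a_harm (h : IsGlobalMin u g) (hu : Continuous u) (hφ : ContDiff ℝ ∞ φ)
    (hc : HasCompactSupport φ) (hs : tsupport φ ⊆ {x | 0 < u x}) : ∫ x, lap φ x * u x = 0 := by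
  obtain ⟨r, hr⟩ := test_ball hc
  obtain ⟨a, ha, h1⟩ := hc.isCompact.exists_forall_le' hu.continuousOn hs
  obtain ⟨C, hC⟩ := hφ.continuous.bounded_above_of_compact_support hc
  have hC0 : 0 ≤ C := (norm_nonneg _).trans (hC 0)
  have key : ∀ t : ℝ, |t| < a / (C + 1) →
      2 * t * ∫ x, lap φ x * u x ≤ t ^ 2 * ∫ x, ‖fderiv ℝ φ x‖ ^ 2 := by
    intro t ht
    have h2 : ∀ x ∈ tsupport φ, 0 < u x + t * φ x := fun x hx => by
      have h3 := h1 x hx
      have h4 : |t * φ x| ≤ |t| * (C + 1) := by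
        rw [abs_mul]
        exact mul_le_mul_of_nonneg_left ((hC x).trans (by linarith)) (abs_nonneg _)
      rw [lt_div_iff₀ (by positivity)] at ht
      linarith [neg_abs_le (t * φ x)]
    have h3 : ∀ x, x ∉ tsupport φ → u x + t * φ x = u x := fun x hx => by
      rw [image_eq_zero_of_notMem_tsupport hx, mul_zero, add_zero]
    have := test_main h hφ hc hr t 0 (h.mem.add_smooth hφ t) ?_ (ae_of_all _ h3) ?_
    · linarith
    · filter_upwards [h.nonneg] with x hx
      by_cases hx' : x ∈ tsupport φ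
      · exact (h2 x hx').le
      · rwa [h3 x hx']
    · intro x
      by_cases hx' : x ∈ tsupport φ
      · rw [if_pos (h2 x hx'), if_pos (show 0 < u x from hs hx'), add_zero]
      · rw [h3 x hx', add_zero]
  have hδ : 0 < a / (C + 1) := by positivity
  have h4 : ∫ x, lap φ x * u x ≤ 0 :=
    test_lim hδ fun t ht ht' => key t (by rwa [abs_of_pos ht])
  have h5 : -∫ x, lap φ x * u x ≤ 0 := by
    refine test_lim (b := ∫ x, ‖fderiv ℝ φ x‖ ^ 2) hδ fun t ht ht' => ?_
    have := key (-t) (by rwa [abs_neg, abs_of_pos ht])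
    rw [neg_sq] at this
    linarith
  linarith


end Vale.Agent.P098
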